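import Vale.Agent.Lib.P100.Region

/-!
Nonexistence for the Lane-Emden system `-Δu = v^p`, `-Δv = u^q` in an explicit region of
subcritical exponents, in every dimension `n ≥ 3`. With `P = (n-2)p`, `Q = (n-2)q` the critical
hyperbola is `(P-2)(Q-2) = n²`, and the region is `P Q (P-2) (Q-2) < n² (n+2)²` (with the side
conditions `2(n-2)(P-1)(P-2) > (n-1)²`, the same for `Q`).
-/

open Vale.Agent.Lib.P100

/-- Let `n ≥ 3`, `p * q > 1`, `P = (n-2)p > 2`, `Q = (n-2)q > 2`. If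
`2(n-2)(P-1)(P-2) > (n-1)²`, `2(n-2)(Q-1)(Q-2) > (n-1)²` and `P Q (P-2)(Q-2) < n²(n+2)²`, then
the Lane-Emden system `-Δu = v^p`, `-Δv = u^q` has no positive `C³` solution on `ℝⁿ`. -/
theorem Vale.Agent.Results.P100.ALaneEmdenRegion.result
    (n : ℕ) (hn : 3 ≤ n) (p q : ℝ) (hpq : 1 < p * q)
    (hP : 2 < ((n : ℝ) - 2) * p) (hQ : 2 < ((n : ℝ) - 2) * q)
    (hs1 : ((n : ℝ) - 1) ^ 2 < 2 * ((n : ℝ) - 2) * (((n : ℝ) - 2) * p - 1) * (((n : ℝ) - 2) * p - 2))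
    (hs2 : ((n : ℝ) - 1) ^ 2 < 2 * ((n : ℝ) - 2) * (((n : ℝ) - 2) * q - 1) * (((n : ℝ) - 2) * q - 2))
    (hreg : (((n : ℝ) - 2) * p) * (((n : ℝ) - 2) * q) *
        ((((n : ℝ) - 2) * p - 2) * (((n : ℝ) - 2) * q - 2)) < (n : ℝ) ^ 2 * ((n : ℝ) + 2) ^ 2)
    (u v : (Fin n → ℝ) → ℝ) (hu : ContDiff ℝ 3 u) (hv : ContDiff ℝ 3 v)
    (upos : ∀ x, 0 < u x) (vpos : ∀ x, 0 < v x)
    (eq1 : ∀ x, - lap u x = v x ^ p) (eq2 : ∀ x, - lap v x = u x ^ q) : False :=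
  noSol_region hn hpq hP hQ hs1 hs2 hreg u v hu hv upos vpos eq1 eq2
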