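import Vale.Agent.Lib.P100.Near

/-!
Nonexistence for the Lane-Emden system `-Δu = v^p`, `-Δv = u^q` within a small distance of the
critical hyperbola, for `n = 5, 6, 7, 8, 9`. With `α = 2(p+1)/(pq-1)` and `β = 2(q+1)/(pq-1)` the
system is subcritical iff `α + β > n - 2`, and nonexistence is classical when
`max(α, β) > n - 3` (Souplet). The theorem covers the complementary range
`max(α, β) ≤ n - 3` as soon as `α + β` exceeds `n - 2` by the listed small margin.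
-/

open Vale.Agent.Lib.P100

/-- For `n = 5, 6, 7, 8, 9`, exponents with `pq > 1`, `max(α, β) ≤ n - 3` and
`α + β ≥ 3.015, 4.04, 5.05, 6.09, 7.14` respectively: no positive `C³` solution on `ℝⁿ`. -/
theorem Vale.Agent.Results.P100.ANearHyperbola.result
    (n : ℕ) (p q : ℝ) (hp : 0 < p) (hq : 0 < q) (hpq : 1 < p * q)
    (hα : 2 * (p + 1) / (p * q - 1) ≤ (n : ℝ) - 3)
    (hβ : 2 * (q + 1) / (p * q - 1) ≤ (n : ℝ) - 3)
    (hgap : (n = 5 ∧ (3.015 : ℝ) ≤ 2 * (p + 1) / (p * q - 1) + 2 * (q + 1) / (p * q - 1)) ∨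
      (n = 6 ∧ (4.04 : ℝ) ≤ 2 * (p + 1) / (p * q - 1) + 2 * (q + 1) / (p * q - 1)) ∨
      (n = 7 ∧ (5.05 : ℝ) ≤ 2 * (p + 1) / (p * q - 1) + 2 * (q + 1) / (p * q - 1)) ∨
      (n = 8 ∧ (6.09 : ℝ) ≤ 2 * (p + 1) / (p * q - 1) + 2 * (q + 1) / (p * q - 1)) ∨
      (n = 9 ∧ (7.14 : ℝ) ≤ 2 * (p + 1) / (p * q - 1) + 2 * (q + 1) / (p * q - 1)))
    (u v : (Fin n → ℝ) → ℝ) (hu : ContDiff ℝ 3 u) (hv : ContDiff ℝ 3 v)
    (upos : ∀ x, 0 < u x) (vpos : ∀ x, 0 < v x)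
    (eq1 : ∀ x, - lap u x = v x ^ p) (eq2 : ∀ x, - lap v x = u x ^ q) : False := by
  rcases hgap with ⟨rfl, h⟩ | ⟨rfl, h⟩ | ⟨rfl, h⟩ | ⟨rfl, h⟩ | ⟨rfl, h⟩
  · obtain ⟨h1, h2, h3⟩ := of_alpha_beta hpq (A0 := 603 / 200) (B := 2)
      (by norm_num at hα ⊢; linarith) (by norm_num at hβ ⊢; linarith)
      (by norm_num at h ⊢; linarith)
    exact tableL5 hp hq hpq h1 h2 h3 u v hu hv upos vpos eq1 eq2
  · obtain ⟨h1, h2, h3⟩ := of_alpha_beta hpq (A0 := 101 / 25) (B := 3)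
      (by norm_num at hα ⊢; linarith) (by norm_num at hβ ⊢; linarith)
      (by norm_num at h ⊢; linarith)
    exact tableL6 hp hq hpq h1 h2 h3 u v hu hv upos vpos eq1 eq2
  · obtain ⟨h1, h2, h3⟩ := of_alpha_beta hpq (A0 := 101 / 20) (B := 4)
      (by norm_num at hα ⊢; linarith) (by norm_num at hβ ⊢; linarith)
      (by norm_num at h ⊢; linarith)
    exact tableL7 hp hq hpq h1 h2 h3 u v hu hv upos vpos eq1 eq2
  · obtain ⟨h1, h2, h3⟩ := of_alpha_beta hpq (A0 := 609 / 100) (B := 5)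
      (by norm_num at hα ⊢; linarith) (by norm_num at hβ ⊢; linarith)
      (by norm_num at h ⊢; linarith)
    exact tableL8 hp hq hpq h1 h2 h3 u v hu hv upos vpos eq1 eq2
  · obtain ⟨h1, h2, h3⟩ := of_alpha_beta hpq (A0 := 357 / 50) (B := 6)
      (by norm_num at hα ⊢; linarith) (by norm_num at hβ ⊢; linarith)
      (by norm_num at h ⊢; linarith)
    exact tableL9 hp hq hpq h1 h2 h3 u v hu hv upos vpos eq1 eq2
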