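import Vale.Agent.Lib.P100.StripAll

/-!
Nonexistence for the Lane-Emden system `-Δu = v^p`, `-Δv = u^q` in every dimension `n ≥ 5`, up to
a strip next to the critical hyperbola. With `α = 2(p+1)/(pq-1)` and `β = 2(q+1)/(pq-1)` the
system is subcritical iff `α + β > n - 2`, and nonexistence is classical when
`max(α, β) > n - 3` (Souplet). The theorem covers the complementary range
`max(α, β) ≤ n - 3` as soon as `α + β ≥ n - 3 + √n / 2`.
-/

open Vale.Agent.Lib.P100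

/-- For `n ≥ 5`, exponents with `pq > 1`, `max(α, β) ≤ n - 3` and `α + β ≥ n - 3 + √n / 2`:
no positive `C³` solution on `ℝⁿ`. -/
theorem Vale.Agent.Results.P100.AStrip.result
    (n : ℕ) (hn : 5 ≤ n) (p q : ℝ) (hp : 0 < p) (hq : 0 < q) (hpq : 1 < p * q)
    (hα : 2 * (p + 1) / (p * q - 1) ≤ (n : ℝ) - 3)
    (hβ : 2 * (q + 1) / (p * q - 1) ≤ (n : ℝ) - 3)
    (hgap : (n : ℝ) - 3 + Real.sqrt n / 2 ≤ 2 * (p + 1) / (p * q - 1) + 2 * (q + 1) / (p * q - 1))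
    (u v : (Fin n → ℝ) → ℝ) (hu : ContDiff ℝ 3 u) (hv : ContDiff ℝ 3 v)
    (upos : ∀ x, 0 < u x) (vpos : ∀ x, 0 < v x)
    (eq1 : ∀ x, - lap u x = v x ^ p) (eq2 : ∀ x, - lap v x = u x ^ q) : False :=
  strip_all hn hp hq hpq hα hβ hgap u v hu hv upos vpos eq1 eq2
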